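import Vale.Agent.P150.Main

/-!
P150: for every fixed `β < 1/2` the heat-bath (Glauber) dynamics of the zero-field
Sherrington-Kirkpatrick model satisfies, with probability tending to one,
`t_mix ≤ C log n` and `gap ≥ 1 - 2β - ε` for every `ε > 0`.
-/

namespace Vale.Agent.Results.P150.FastMixing

open Vale.Agent.P150 MeasureTheory Filter
open scoped Topology

/-- Fast mixing and spectral gap for all `β < 1/2`. -/
theorem result (β : ℝ) (hβ0 : 0 ≤ β) (hβ : β < 1 / 2) :
    (∃ C : ℝ, Tendsto (fun n : ℕ =>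
      disorder n {g | ((C * Real.log n : ℝ) : EReal) < tMix (skH n β g)}) atTop (𝓝 0)) ∧
    (∀ ε : ℝ, 0 < ε → Tendsto (fun n : ℕ =>
      disorder n {g | specGap (skH n β g) < 1 - 2 * β - ε}) atTop (𝓝 0)) := by
  refine ⟨?_, fun ε hε => gap_whp β hβ0 hβ ε hε⟩
  obtain ⟨C, hC⟩ := mix_whp β hβ0 hβ
  refine ⟨C, ?_⟩
  simpa only [not_le] using hC

end Vale.Agent.Results.P150.FastMixing
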