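import Vale.Agent.P150.Fields

/-!
P150: for every fixed `β < 1/2` the heat-bath (Glauber) dynamics of the Sherrington-Kirkpatrick
model is fast with probability tending to one, simultaneously for all external fields.
-/

namespace Vale.Agent.Results.P150.FastMixingFields

open Vale.Agent.P150 MeasureTheory Filter
open scoped Topology

/-- Fast mixing and spectral gap for all `β < 1/2`, uniformly over external fields. -/
theorem result (β : ℝ) (hβ0 : 0 ≤ β) (hβ : β < 1 / 2) :
    (∀ K : ℕ, ∃ C : ℝ, Tendsto (fun n : ℕ => disorder n {g | ∃ h : Fin n → ℝ,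
      (∀ i, |h i| ≤ (n : ℝ) ^ K) ∧ ((C * Real.log n : ℝ) : EReal) < tMix (skHField n β g h)})
      atTop (𝓝 0)) ∧
    (∀ ε : ℝ, 0 < ε → Tendsto (fun n : ℕ => disorder n {g | ∃ h : Fin n → ℝ,
      specGap (skHField n β g h) < 1 - 2 * β - ε}) atTop (𝓝 0)) := by
  refine ⟨fun K => ?_, fun ε hε => ?_⟩
  · exact mix_fields_whp β hβ0 hβ K
  · exact gap_fields_whp β hβ0 hβ ε hε

end Vale.Agent.Results.P150.FastMixingFields
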