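import Vale.Agent.P150.Main
import Vale.Agent.P150.Slow.Main

/-!
P150: heat-bath dynamics of the zero-field Sherrington-Kirkpatrick model: fast mixing and a
spectral gap for every `β < 1/2`, and failure of fast mixing for every `β > 1`.
-/

namespace Vale.Agent.Results.P150.TwoPhases

open Vale.Agent.P150 MeasureTheory Filter
open scoped Topology

/-- Fast mixing for all `β < 1/2`, no fast mixing for any `β > 1`. -/
theorem result :
    (∀ β : ℝ, 0 ≤ β → β < 1 / 2 →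
      (∃ C : ℝ, Tendsto (fun n : ℕ =>
        disorder n {g | ((C * Real.log n : ℝ) : EReal) < tMix (skH n β g)}) atTop (𝓝 0)) ∧
      (∀ ε : ℝ, 0 < ε → Tendsto (fun n : ℕ =>
        disorder n {g | specGap (skH n β g) < 1 - 2 * β - ε}) atTop (𝓝 0))) ∧
    (∀ β : ℝ, 1 < β →
      (∃ c : ℝ, 0 < c ∧ ¬ Tendsto (fun n : ℕ =>
        disorder n {g | ((c * n : ℝ) : EReal) < tMix (skH n β g)}) atTop (𝓝 0)) ∧
      (∃ K : ℝ, 0 < K ∧ ¬ Tendsto (fun n : ℕ =>
        disorder n {g | specGap (skH n β g) < K / n}) atTop (𝓝 0))) := by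
  refine ⟨fun β hβ0 hβ => ⟨?_, fun ε hε => gap_whp β hβ0 hβ ε hε⟩,
    fun β hβ => ⟨Slow.mix_slow β hβ, Slow.gap_small β hβ⟩⟩
  obtain ⟨C, hC⟩ := mix_whp β hβ0 hβ
  refine ⟨C, ?_⟩
  simpa only [not_le] using hC

end Vale.Agent.Results.P150.TwoPhases
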